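import Vale.Agent.Results.P154.A00ThreeFourAntiQuarter
import Vale.Agent.Lib.P154N.Small
import Vale.Agent.Lib.P154Neg.C3.Dary
import Vale.Agent.Lib.P154Neg.A4.Dary

open Vale.Agent.Lib.P154GW Vale.Agent.Lib.P154Q in
/-- Nonreconstruction for the Potts channels with three and four states whenever `d * lam ^ 2 ≤ 1`.
Three states: on the `d`-ary tree for every integer `d ≥ 2` and every admissible `lam` (`-1/2 ≤ lam`); on the Galton-Watson
tree with any offspring law of mean `d` charging some `k ≥ 2`, for `-1/4 ≤ lam < 1`; on Poisson trees of mean `d > 0` for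
`0 ≤ lam ≤ 1`; on Poisson trees of mean `d ≤ 1` for every admissible `lam`.
Four states: on the `d`-ary tree for `lam ≥ 0` and every integer `d ≥ 2`; on Poisson trees of mean `d > 0` for
`0 ≤ lam ≤ 1`; on the Galton-Watson tree with any offspring law of mean `d` charging some `k ≥ 2`, for `0 ≤ lam < 1`.
The law of the truncated tree has total mass one and the expectation defining `a_n` is an absolutely convergent series. -/
theorem Vale.Agent.Results.P154.A000ThreeFourAllTrees.result :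
    ((∀ (d : ℕ) (lam : ℝ), 2 ≤ d → 0 ≤ lam → (d : ℝ) * lam ^ 2 ≤ 1 →
      Filter.Tendsto (Vale.Agent.Lib.P154.reconDist 4 d lam) Filter.atTop (nhds 0)) ∧
    (∀ d lam : ℝ, 0 < d → 0 ≤ lam → lam ≤ 1 → d * lam ^ 2 ≤ 1 →
      (∀ n, HasSum (treeProb (poisson d) n) 1) ∧
      (∀ n, Summable fun T : Tr n => treeProb (poisson d) n T * advTree 4 lam n T) ∧
      Filter.Tendsto (advantage (poisson d) 4 lam) Filter.atTop (nhds 0)) ∧
    (∀ (π : ℕ → ℝ) (d lam : ℝ), (∀ k, 0 ≤ π k) → HasSum π 1 →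
      HasSum (fun k : ℕ => (k : ℝ) * π k) d → (∃ k, 2 ≤ k ∧ 0 < π k) → 0 ≤ lam → lam < 1 →
      d * lam ^ 2 ≤ 1 →
      (∀ n, HasSum (treeProb π n) 1) ∧
      (∀ n, Summable fun T : Tr n => treeProb π n T * advTree 4 lam n T) ∧
      Filter.Tendsto (advantage π 4 lam) Filter.atTop (nhds 0))) ∧
    ((∀ (d : ℕ) (lam : ℝ), 2 ≤ d → -(1 / 2) ≤ lam → (d : ℝ) * lam ^ 2 ≤ 1 →
      Filter.Tendsto (Vale.Agent.Lib.P154.reconDist 3 d lam) Filter.atTop (nhds 0)) ∧
    (∀ (π : ℕ → ℝ) (d lam : ℝ), (∀ k, 0 ≤ π k) → HasSum π 1 →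
      HasSum (fun k : ℕ => (k : ℝ) * π k) d → (∃ k, 2 ≤ k ∧ 0 < π k) →
      -(1 / 4) ≤ lam → lam < 1 → d * lam ^ 2 ≤ 1 →
      (∀ n, HasSum (treeProb π n) 1) ∧
      (∀ n, Summable fun T : Tr n => treeProb π n T * advTree 3 lam n T) ∧
      Filter.Tendsto (advantage π 3 lam) Filter.atTop (nhds 0)) ∧
    (∀ d lam : ℝ, 0 < d → 0 ≤ lam → lam ≤ 1 → d * lam ^ 2 ≤ 1 →
      (∀ n, HasSum (treeProb (poisson d) n) 1) ∧
      (∀ n, Summable fun T : Tr n => treeProb (poisson d) n T * advTree 3 lam n T) ∧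
      Filter.Tendsto (advantage (poisson d) 3 lam) Filter.atTop (nhds 0)) ∧
    (∀ d lam : ℝ, 0 ≤ d → d ≤ 1 → -(1 / 2) ≤ lam → lam ≤ 1 →
      Filter.Tendsto (advantage (poisson d) 3 lam) Filter.atTop (nhds 0))) := by
  obtain ⟨h4, h3f, h3l, h3p, h3s⟩ := Vale.Agent.Results.P154.A00ThreeFourAntiQuarter.result
  refine ⟨h4, ?_, h3l, h3p, h3s⟩
  intro d lam h2 hl0 hd
  rcases le_or_gt 0 lam with h0 | h0
  · exact h3f d lam h2 h0 hd
  by_cases h8 : d ≤ 8
  · exact Vale.Agent.Lib.P154N.tendsto_small h2 h8 (by linarith) h0 hd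
  by_cases h16 : 16 ≤ d
  · exact Vale.Agent.Lib.P154Neg.A4.tendsto_dary h16 h0 hd
  have hd1 : 9 ≤ d := by omega
  have hd2 : d ≤ 15 := by omega
  interval_cases d
  · exact Vale.Agent.Lib.P154Neg.C3.tendsto_d9 h0 (by simpa using hd)
  · exact Vale.Agent.Lib.P154Neg.C3.tendsto_d10 h0 (by simpa using hd)
  · exact Vale.Agent.Lib.P154Neg.C3.tendsto_d11 h0 (by simpa using hd)
  · exact Vale.Agent.Lib.P154Neg.C3.tendsto_d12 h0 (by simpa using hd)
  · exact Vale.Agent.Lib.P154Neg.C3.tendsto_d13 h0 (by simpa using hd)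
  · exact Vale.Agent.Lib.P154Neg.C3.tendsto_d14 h0 (by simpa using hd)
  · exact Vale.Agent.Lib.P154Neg.C3.tendsto_d15 h0 (by simpa using hd)
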