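import Vale.Agent.Results.P154.A0FourFerroAllTrees
import Vale.Agent.Lib.P154.Main
import Vale.Agent.Lib.P154F.Final
import Vale.Agent.Lib.P154Neg.A4.Main

open Vale.Agent.Lib.P154GW Vale.Agent.Lib.P154Q in
/-- Nonreconstruction for the Potts channels with three and four states whenever `d * lam ^ 2 ≤ 1`.
Four states: on the `d`-ary tree for `lam ≥ 0` and every integer `d ≥ 2`; on Poisson trees of mean `d > 0` for
`0 ≤ lam ≤ 1`; on the Galton-Watson tree with any offspring law of mean `d` charging some `k ≥ 2`, for `0 ≤ lam < 1`.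
Three states: on the `d`-ary tree for `lam ≥ 0` and every integer `d ≥ 2`; on the Galton-Watson tree with any offspring
law of mean `d` charging some `k ≥ 2`, for `-1/4 ≤ lam < 1`; on Poisson trees of mean `d > 0` for `0 ≤ lam ≤ 1`; and on
Poisson trees of mean `d ≤ 1` for every admissible `lam`.  The law of the truncated tree has total mass one and the
expectation defining `a_n` is an absolutely convergent series. -/
theorem Vale.Agent.Results.P154.A00ThreeFourAntiQuarter.result :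
    ((∀ (d : ℕ) (lam : ℝ), 2 ≤ d → 0 ≤ lam → (d : ℝ) * lam ^ 2 ≤ 1 →
      Filter.Tendsto (Vale.Agent.Lib.P154.reconDist 4 d lam) Filter.atTop (nhds 0)) ∧
    (∀ d lam : ℝ, 0 < d → 0 ≤ lam → lam ≤ 1 → d * lam ^ 2 ≤ 1 →
      (∀ n, HasSum (treeProb (poisson d) n) 1) ∧
      (∀ n, Summable fun T : Tr n => treeProb (poisson d) n T * advTree 4 lam n T) ∧
      Filter.Tendsto (advantage (poisson d) 4 lam) Filter.atTop (nhds 0)) ∧
    (∀ (π : ℕ → ℝ) (d lam : ℝ), (∀ k, 0 ≤ π k) → HasSum π 1 →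
      HasSum (fun k : ℕ => (k : ℝ) * π k) d → (∃ k, 2 ≤ k ∧ 0 < π k) → 0 ≤ lam → lam < 1 →
      d * lam ^ 2 ≤ 1 →
      (∀ n, HasSum (treeProb π n) 1) ∧
      (∀ n, Summable fun T : Tr n => treeProb π n T * advTree 4 lam n T) ∧
      Filter.Tendsto (advantage π 4 lam) Filter.atTop (nhds 0))) ∧
    ((∀ (d : ℕ) (lam : ℝ), 2 ≤ d → 0 ≤ lam → (d : ℝ) * lam ^ 2 ≤ 1 →
      Filter.Tendsto (Vale.Agent.Lib.P154.reconDist 3 d lam) Filter.atTop (nhds 0)) ∧
    (∀ (π : ℕ → ℝ) (d lam : ℝ), (∀ k, 0 ≤ π k) → HasSum π 1 →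
      HasSum (fun k : ℕ => (k : ℝ) * π k) d → (∃ k, 2 ≤ k ∧ 0 < π k) →
      -(1 / 4) ≤ lam → lam < 1 → d * lam ^ 2 ≤ 1 →
      (∀ n, HasSum (treeProb π n) 1) ∧
      (∀ n, Summable fun T : Tr n => treeProb π n T * advTree 3 lam n T) ∧
      Filter.Tendsto (advantage π 3 lam) Filter.atTop (nhds 0)) ∧
    (∀ d lam : ℝ, 0 < d → 0 ≤ lam → lam ≤ 1 → d * lam ^ 2 ≤ 1 →
      (∀ n, HasSum (treeProb (poisson d) n) 1) ∧
      (∀ n, Summable fun T : Tr n => treeProb (poisson d) n T * advTree 3 lam n T) ∧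
      Filter.Tendsto (advantage (poisson d) 3 lam) Filter.atTop (nhds 0)) ∧
    (∀ d lam : ℝ, 0 ≤ d → d ≤ 1 → -(1 / 2) ≤ lam → lam ≤ 1 →
      Filter.Tendsto (advantage (poisson d) 3 lam) Filter.atTop (nhds 0))) := by
  have hchan : ∀ lam : ℝ, -(1 / 2) ≤ lam → lam ≤ 1 → ∀ i j, 0 ≤ chan 3 lam i j := by
    intro lam h0 h1 i j
    simp only [chan]
    have h3 : ((3 : ℕ) : ℝ) = 3 := by norm_num
    rw [h3]
    split_ifs <;> nlinarith
  refine ⟨Vale.Agent.Results.P154.A0FourFerroAllTrees.result,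
    fun d lam hd h0 h => Vale.Agent.Lib.P154.nonrecon_ferro_three d hd lam h0 h, ?_, ?_, ?_⟩
  · rintro π d lam hπ0 hπ hmean ⟨k, hk, hk0⟩ hl0 hl hd
    have hch := hchan lam (by linarith) (by linarith)
    refine ⟨Vale.Agent.Lib.P154Q.hasSum_treeProb hπ0 hπ,
      fun n => (Vale.Agent.Lib.P154Q.advantage_bounds hπ0 hπ hch n).1, ?_⟩
    obtain ⟨k₀, rfl⟩ : ∃ k₀, k = k₀ + 2 := ⟨k - 2, by omega⟩
    rcases le_total lam 0 with h0 | h0
    · exact Vale.Agent.Lib.P154Neg.A4.tendsto hπ0 hπ hmean k₀ hk0 (by norm_num; linarith) h0 hd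
    · exact Vale.Agent.Lib.P154F.tendsto_law hπ0 hπ hmean k₀ hk0 h0 hl hd
  · intro d lam hd0 h0 hl1 hd
    have hch := hchan lam (by linarith) hl1
    have hπ0 := Vale.Agent.Lib.P154Q.poisson_nonneg hd0.le
    have hπ := Vale.Agent.Lib.P154Q.poisson_hasSum d
    refine ⟨Vale.Agent.Lib.P154Q.hasSum_treeProb hπ0 hπ,
      fun n => (Vale.Agent.Lib.P154Q.advantage_bounds hπ0 hπ hch n).1, ?_⟩
    rcases hl1.eq_or_lt with rfl | hlt
    · have hd1 : d ≤ 1 := by simpa using hd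
      exact Vale.Agent.Lib.P154Q.tendsto_extinct hd0.le hd1 hch
    · exact Vale.Agent.Lib.P154F.tendsto_law hπ0 hπ (Vale.Agent.Lib.P154Q.poisson_mean d) 0
        (Vale.Agent.Lib.P154Q.poisson_two_pos hd0) h0 hlt hd
  · intro d lam hd0 hd1 h0 h1
    exact Vale.Agent.Lib.P154Q.tendsto_extinct hd0 hd1 (hchan lam h0 h1)
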