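import Vale.Agent.Lib.P154R.DataQ4

open Vale.Agent.Lib.P154GW Vale.Agent.Lib.P154Q in
/-- The four state ferromagnetic Potts channel has nonreconstruction whenever `d * lam ^ 2 ≤ 1`: on the
`d`-ary tree for every integer `d ≥ 2`; on the Galton-Watson tree with Poisson offspring of mean `d` for every
real `d > 0` and `0 ≤ lam ≤ 1`; and on the Galton-Watson tree with any offspring law `π` of finite mean `d` with
`π k > 0` for some `k ≥ 2`, for `0 ≤ lam < 1`.  For the Galton-Watson trees the law of the truncated tree has total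
mass one and the expectation defining `a_n` is an absolutely convergent series. -/
theorem Vale.Agent.Results.P154.A0FourFerroAllTrees.result :
    (∀ (d : ℕ) (lam : ℝ), 2 ≤ d → 0 ≤ lam → (d : ℝ) * lam ^ 2 ≤ 1 →
      Filter.Tendsto (Vale.Agent.Lib.P154.reconDist 4 d lam) Filter.atTop (nhds 0)) ∧
    (∀ d lam : ℝ, 0 < d → 0 ≤ lam → lam ≤ 1 → d * lam ^ 2 ≤ 1 →
      (∀ n, HasSum (treeProb (poisson d) n) 1) ∧
      (∀ n, Summable fun T : Tr n => treeProb (poisson d) n T * advTree 4 lam n T) ∧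
      Filter.Tendsto (advantage (poisson d) 4 lam) Filter.atTop (nhds 0)) ∧
    (∀ (π : ℕ → ℝ) (d lam : ℝ), (∀ k, 0 ≤ π k) → HasSum π 1 →
      HasSum (fun k : ℕ => (k : ℝ) * π k) d → (∃ k, 2 ≤ k ∧ 0 < π k) → 0 ≤ lam → lam < 1 →
      d * lam ^ 2 ≤ 1 →
      (∀ n, HasSum (treeProb π n) 1) ∧
      (∀ n, Summable fun T : Tr n => treeProb π n T * advTree 4 lam n T) ∧
      Filter.Tendsto (advantage π 4 lam) Filter.atTop (nhds 0)) :=
  Vale.Agent.Lib.P154R.package (q := 4) fun _ h0 h1 => Vale.Agent.Lib.P154R.hasData4 h0 h1
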