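import Vale.Agent.Lib.P154.Main
import Vale.Agent.Lib.P154K.P710
import Vale.Agent.Lib.P154Neg.S6
import Vale.Agent.Lib.P154Q.Alive

open Vale.Agent.Lib.P154GW in
/-- The three state Potts channel has nonreconstruction whenever `d * lam ^ 2 ≤ 1` in the following cases.
For `lam ≥ 0`: on the `d`-ary tree for every integer `d ≥ 2`, and on the Galton-Watson tree with Poisson
offspring of mean `d` for every real `d ≥ 100 / 49`.  For `-1/6 ≤ lam ≤ 0`: on the Galton-Watson tree with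
any offspring law of mean `d` that charges some `k ≥ 2`; this holds in particular for the `d`-ary tree and
for Poisson offspring when `d ≥ 36` and `lam ≤ 0`. The law of the truncated tree has total mass one and the
expectation defining `a_n` is an absolutely convergent series. Poisson trees of mean `d ≤ 1` have
nonreconstruction for every admissible `lam`. -/
theorem Vale.Agent.Results.P154.AntiSixAnyLaw.result :
    (∀ (d : ℕ) (lam : ℝ), 2 ≤ d → 0 ≤ lam → (d : ℝ) * lam ^ 2 ≤ 1 →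
      Filter.Tendsto (Vale.Agent.Lib.P154.reconDist 3 d lam) Filter.atTop (nhds 0)) ∧
    (∀ d lam : ℝ, 100 / 49 ≤ d → 0 ≤ lam → d * lam ^ 2 ≤ 1 →
      (∀ n, HasSum (treeProb (poisson d) n) 1) ∧
      (∀ n, Summable fun T : Tr n => treeProb (poisson d) n T * advTree 3 lam n T) ∧
      Filter.Tendsto (advantage (poisson d) 3 lam) Filter.atTop (nhds 0)) ∧
    (∀ (π : ℕ → ℝ) (d lam : ℝ), (∀ k, 0 ≤ π k) → HasSum π 1 →
      HasSum (fun k : ℕ => (k : ℝ) * π k) d → (∃ k, 2 ≤ k ∧ 0 < π k) →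
      -(1 / 6) ≤ lam → lam ≤ 0 → d * lam ^ 2 ≤ 1 →
      (∀ n, HasSum (treeProb π n) 1) ∧
      (∀ n, Summable fun T : Tr n => treeProb π n T * advTree 3 lam n T) ∧
      Filter.Tendsto (advantage π 3 lam) Filter.atTop (nhds 0)) ∧
    (∀ d lam : ℝ, 0 ≤ d → d ≤ 1 → -(1 / 2) ≤ lam → lam ≤ 1 →
      Filter.Tendsto (advantage (poisson d) 3 lam) Filter.atTop (nhds 0)) := by
  have hchan : ∀ lam : ℝ, -(1 / 2) ≤ lam → lam ≤ 1 → ∀ i j, 0 ≤ chan 3 lam i j := by
    intro lam h0 h1 i j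
    simp only [chan]
    have h3 : ((3 : ℕ) : ℝ) = 3 := by norm_num
    rw [h3]
    split_ifs <;> nlinarith
  refine ⟨fun d lam hd h0 h => Vale.Agent.Lib.P154.nonrecon_ferro_three d hd lam h0 h, ?_, ?_, ?_⟩
  · intro d lam hd2 h0 hd
    have hd0 : 0 < d := by linarith
    have hsq : lam ^ 2 ≤ 49 / 100 := by
      have h2 : 100 / 49 * lam ^ 2 ≤ d * lam ^ 2 := mul_le_mul_of_nonneg_right hd2 (sq_nonneg lam)
      linarith
    have hl : lam ≤ 7 / 10 := by nlinarith
    have hl1 : lam ≤ 1 := by linarith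
    refine ⟨hasSum_treeProb (poisson_nonneg hd0.le) (poisson_hasSum d),
      fun n => (advantage_bounds (poisson_nonneg hd0.le) (poisson_hasSum d) h0 hl1 n).1, ?_⟩
    exact Vale.Agent.Lib.P154K.P710.tendsto hd0 h0 (by norm_num; linarith) hd
  · rintro π d lam hπ0 hπ hmean ⟨k, hk, hk0⟩ hl0 hl hd
    have hch := hchan lam (by linarith) (by linarith)
    refine ⟨hasSum_treeProb hπ0 hπ,
      fun n => (Vale.Agent.Lib.P154Q.advantage_bounds hπ0 hπ hch n).1, ?_⟩
    obtain ⟨k₀, rfl⟩ : ∃ k₀, k = k₀ + 2 := ⟨k - 2, by omega⟩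
    exact Vale.Agent.Lib.P154Neg.S6.tendsto hπ0 hπ hmean k₀ hk0 (by norm_num; linarith) hl hd
  · intro d lam hd0 hd1 h0 h1
    exact Vale.Agent.Lib.P154Q.tendsto_extinct hd0 hd1 (hchan lam h0 h1)
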