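import Vale.Agent.Lib.P154.Main
import Vale.Agent.Lib.P154F.Final

open Vale.Agent.Lib.P154GW in
/-- The three state ferromagnetic Potts channel has nonreconstruction whenever `d * lam ^ 2 ≤ 1`: on the
`d`-ary tree for every integer `d ≥ 2`; on the Galton-Watson tree with Poisson offspring of mean `d` for every
real `d > 0` and `0 ≤ lam ≤ 1`, where the law of the truncated tree has total mass one and the expectation
defining `a_n` is an absolutely convergent series; and on the Galton-Watson tree with any offspring law `π` of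
finite mean `d` with `π k > 0` for some `k ≥ 2`, for `0 ≤ lam < 1`. -/
theorem Vale.Agent.Results.P154.FerroAllOffspring.result :
    (∀ (d : ℕ) (lam : ℝ), 2 ≤ d → 0 ≤ lam → (d : ℝ) * lam ^ 2 ≤ 1 →
      Filter.Tendsto (Vale.Agent.Lib.P154.reconDist 3 d lam) Filter.atTop (nhds 0)) ∧
    (∀ d lam : ℝ, 0 < d → 0 ≤ lam → lam ≤ 1 → d * lam ^ 2 ≤ 1 →
      (∀ n, HasSum (treeProb (poisson d) n) 1) ∧
      (∀ n, Summable fun T : Tr n => treeProb (poisson d) n T * advTree 3 lam n T) ∧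
      Filter.Tendsto (advantage (poisson d) 3 lam) Filter.atTop (nhds 0)) ∧
    (∀ (π : ℕ → ℝ) (d lam : ℝ), (∀ k, 0 ≤ π k) → HasSum π 1 →
      HasSum (fun k : ℕ => (k : ℝ) * π k) d → (∃ k, 2 ≤ k ∧ 0 < π k) → 0 ≤ lam → lam < 1 →
      d * lam ^ 2 ≤ 1 → Filter.Tendsto (advantage π 3 lam) Filter.atTop (nhds 0)) := by
  refine ⟨fun d lam hd h0 h => Vale.Agent.Lib.P154.nonrecon_ferro_three d hd lam h0 h, ?_, ?_⟩
  · intro d lam hd0 h0 hl1 hd
    refine ⟨hasSum_treeProb (poisson_nonneg hd0.le) (poisson_hasSum d),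
      fun n => (advantage_bounds (poisson_nonneg hd0.le) (poisson_hasSum d) h0 hl1 n).1, ?_⟩
    rcases hl1.eq_or_lt with rfl | hlt
    · have hd1 : d ≤ 1 := by simpa using hd
      refine Vale.Agent.Lib.P154Q.tendsto_extinct hd0.le hd1 ?_
      intro i j
      simp only [chan]
      split_ifs <;> norm_num
    · exact Vale.Agent.Lib.P154F.tendsto_law (Vale.Agent.Lib.P154Q.poisson_nonneg hd0.le)
        (Vale.Agent.Lib.P154Q.poisson_hasSum d) (Vale.Agent.Lib.P154Q.poisson_mean d) 0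
        (Vale.Agent.Lib.P154Q.poisson_two_pos hd0) h0 hlt hd
  · rintro π d lam hπ0 hπ hmean ⟨k, hk, hpos⟩ h0 h1 hd
    obtain ⟨k₀, rfl⟩ : ∃ k₀, k = k₀ + 2 := ⟨k - 2, by omega⟩
    exact Vale.Agent.Lib.P154F.tendsto_law hπ0 hπ hmean k₀ hpos h0 h1 hd
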