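import Vale.Agent.Lib.P154.Main
import Vale.Agent.Lib.P154K.P710

open Vale.Agent.Lib.P154GW in
/-- The three state ferromagnetic Potts channel has nonreconstruction whenever `d * lam ^ 2 ≤ 1`, on the
`d`-ary tree for every integer `d ≥ 2`, and on the Galton-Watson tree with Poisson offspring of mean `d`
for every real `d ≥ 100 / 49`. In the second case the law of the truncated tree has total mass one and
the expectation defining `a_n` is an absolutely convergent series. -/
theorem Vale.Agent.Results.P154.FerroDaryPoissonTwo.result :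
    (∀ (d : ℕ) (lam : ℝ), 2 ≤ d → 0 ≤ lam → (d : ℝ) * lam ^ 2 ≤ 1 →
      Filter.Tendsto (Vale.Agent.Lib.P154.reconDist 3 d lam) Filter.atTop (nhds 0)) ∧
    (∀ d lam : ℝ, 100 / 49 ≤ d → 0 ≤ lam → d * lam ^ 2 ≤ 1 →
      (∀ n, HasSum (treeProb (poisson d) n) 1) ∧
      (∀ n, Summable fun T : Tr n => treeProb (poisson d) n T * advTree 3 lam n T) ∧
      Filter.Tendsto (advantage (poisson d) 3 lam) Filter.atTop (nhds 0)) := by
  refine ⟨fun d lam hd h0 h => Vale.Agent.Lib.P154.nonrecon_ferro_three d hd lam h0 h, ?_⟩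
  intro d lam hd2 h0 hd
  have hd0 : 0 < d := by linarith
  have hsq : lam ^ 2 ≤ 49 / 100 := by
    have h2 : 100 / 49 * lam ^ 2 ≤ d * lam ^ 2 := mul_le_mul_of_nonneg_right hd2 (sq_nonneg lam)
    linarith
  have hl : lam ≤ 7 / 10 := by nlinarith
  have hl1 : lam ≤ 1 := by linarith
  refine ⟨hasSum_treeProb (poisson_nonneg hd0.le) (poisson_hasSum d),
    fun n => (advantage_bounds (poisson_nonneg hd0.le) (poisson_hasSum d) h0 hl1 n).1, ?_⟩
  exact Vale.Agent.Lib.P154K.P710.tendsto hd0 h0 (by norm_num; linarith) hd
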