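import Vale.Agent.Lib.P154.Defs
import Vale.Agent.Lib.P154.Main

/-- On the rooted `d`-ary tree, `d ≥ 2`, the ferromagnetic three state Potts channel with
`0 ≤ lam` and `d * lam ^ 2 ≤ 1` has nonreconstruction: the distance `a_n` tends to zero. -/
theorem Vale.Agent.Results.P154.NonreconFerroThree.result (d : ℕ) (hd : 2 ≤ d) (lam : ℝ) (h0 : 0 ≤ lam)
    (h : (d : ℝ) * lam ^ 2 ≤ 1) :
    Filter.Tendsto (Vale.Agent.Lib.P154.reconDist 3 d lam) Filter.atTop (nhds 0) :=
  Vale.Agent.Lib.P154.nonrecon_ferro_three d hd lam h0 h
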